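import Mathlib
import Vale.Agent.P205.Torus

open scoped ContDiff

namespace Vale.Agent.Results.P205.TorusKilling

/-- A smooth Riemannian metric on the torus `ℝ²/ℤ²`, given by its lift to `ℝ²`: a smooth field of
positive definite symmetric bilinear forms on `ℝ²` that is invariant under integer translations. -/
structure TorusMetric where
  g : ℝ × ℝ → (ℝ × ℝ) →L[ℝ] (ℝ × ℝ) →L[ℝ] ℝ
  smooth : ContDiff ℝ ∞ g
  symm : ∀ p v w, g p v w = g p w v
  pos : ∀ p v, v ≠ 0 → 0 < g p v v
  periodic : ∀ (p : ℝ × ℝ) (m n : ℤ), g (p + ((m : ℝ), (n : ℝ))) = g p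

/-- Every smooth Riemannian metric on the torus `ℝ²/ℤ²` that is invariant under all translations in
some fixed direction `w ≠ 0` (rational or not) has a smooth isometric immersion into `ℝ⁴`. -/
theorem result (M : TorusMetric) (w : ℝ × ℝ) (hw : w ≠ 0)
    (hinv : ∀ (p : ℝ × ℝ) (t : ℝ), M.g (p + t • w) = M.g p) :
    ∃ Φ : ℝ × ℝ → EuclideanSpace ℝ (Fin 4), ContDiff ℝ ∞ Φ ∧
      (∀ (p : ℝ × ℝ) (m n : ℤ), Φ (p + ((m : ℝ), (n : ℝ))) = Φ p) ∧
      ∀ p v w, inner ℝ (fderiv ℝ Φ p v) (fderiv ℝ Φ p w) = M.g p v w := by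
  by_cases hrat : ∃ m n : ℤ, (m ≠ 0 ∨ n ≠ 0) ∧ (m : ℝ) * w.2 = n * w.1
  · -- rational direction
    obtain ⟨m, n, hmn, hpar⟩ := hrat
    have hgpos : 0 < Int.gcd m n := by
      rw [Nat.pos_iff_ne_zero, Ne, Int.gcd_eq_zero_iff]
      tauto
    obtain ⟨m', n', hcop, hm, hn⟩ := Int.exists_gcd_one hgpos
    obtain ⟨a, b, hab⟩ := (Int.isCoprime_iff_gcd_eq_one.2 hcop)
    have hg0 : ((Int.gcd m n : ℤ) : ℝ) ≠ 0 := by exact_mod_cast hgpos.ne'
    have hpar' : (m' : ℝ) * w.2 = n' * w.1 := by
      have h1 : (m : ℝ) = m' * (Int.gcd m n : ℤ) := by exact_mod_cast hm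
      have h2 : (n : ℝ) = n' * (Int.gcd m n : ℤ) := by exact_mod_cast hn
      rw [h1, h2] at hpar
      apply mul_left_cancel₀ hg0
      linear_combination hpar
    have hab' : (a : ℝ) * m' + b * n' = 1 := by exact_mod_cast hab
    -- `w` is a multiple of `(m', n')`
    have hw' : w = (a * w.1 + b * w.2) • ((m' : ℝ), (n' : ℝ)) := by
      ext
      · change w.1 = (a * w.1 + b * w.2) * m'
        linear_combination (-w.1) * hab' - b * hpar'
      · change w.2 = (a * w.1 + b * w.2) * n'
        linear_combination (-w.2) * hab' + a * hpar'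
    have hc : a * w.1 + b * w.2 ≠ 0 := by
      intro h
      rw [h, zero_smul] at hw'
      exact hw hw'
    apply Vale.Agent.P205aux.immerses_of_rational M.smooth M.symm M.pos M.periodic m' n' b (-a)
      (by linarith)
    intro p t
    have := hinv p (t / (a * w.1 + b * w.2))
    have h3 : (t / (a * w.1 + b * w.2)) • w = t • ((m' : ℝ), (n' : ℝ)) := by
      conv_lhs => rw [hw']
      rw [smul_smul]
      congr 1
      rw [← hw']
      field_simp
    rwa [h3] at this
  · -- irrational direction: the metric is flat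
    push Not at hrat
    have hw1 : w.1 ≠ 0 := by
      intro h
      exact hrat 0 1 (Or.inr one_ne_zero) (by simp [h])
    have hirr : Irrational (w.2 / w.1) := by
      rintro ⟨q, hq⟩
      apply hrat q.den q.num (Or.inl (by exact_mod_cast q.den_nz))
      have h1 : (q : ℝ) = q.num / q.den := by exact_mod_cast (Rat.num_div_den q).symm
      rw [h1] at hq
      have h2 : (q.den : ℝ) ≠ 0 := by exact_mod_cast q.den_nz
      field_simp at hq
      push_cast
      linear_combination -hq
    have hconst := Vale.Agent.P205aux.const_of_irrational M.smooth M.periodic w hw1 hirr hinv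
    apply Vale.Agent.P205aux.immerses_of_rational M.smooth M.symm M.pos M.periodic 0 1 1 0
      (by norm_num)
    intro p t
    rw [hconst, hconst p]

end Vale.Agent.Results.P205.TorusKilling
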